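import Mathlib

open MeasureTheory Filter Topology Set
open scoped ENNReal NNReal

namespace Vale.Agent.Results.P112.TruncationRange

/-- The Euclidean plane `ℝ²`. -/
abbrev Plane : Type := EuclideanSpace ℝ (Fin 2)

/-- The truncated directional Hilbert transform
`H^ε_{v,a} f (x) = ∫_{ε < |t| < a} f (x - t v(x)) dt / t`. -/
noncomputable def truncHilbert (v : Plane → Plane) (ε a : ℝ) (f : Plane → ℂ) (x : Plane) : ℂ :=
  ∫ t in {t : ℝ | ε < |t| ∧ |t| < a}, f (x - t • v x) / (t : ℂ)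

/-- The principal value `H_{v,a} f (x) = lim_{ε ↓ 0} H^ε_{v,a} f (x)`. -/
noncomputable def pvHilbert (v : Plane → Plane) (a : ℝ) (f : Plane → ℂ) (x : Plane) : ℂ :=
  limUnder (𝓝[>] (0 : ℝ)) (fun ε => truncHilbert v ε a f x)

/-- The uniform weak-type (2,2) bound of Stein's conjecture with truncation `a` and constant `C`:
for every unit vector field `v` with Lipschitz constant at most one, every Schwartz `f` and
every `lam > 0`, `|{x : |H_{v,a} f(x)| > lam}| ≤ C lam⁻² ‖f‖₂²`. -/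
def SteinWeakBound (a C : ℝ) : Prop :=
  ∀ v : Plane → Plane, (∀ x, ‖v x‖ = 1) → LipschitzWith 1 v →
    ∀ f : SchwartzMap Plane ℂ, ∀ lam : ℝ, 0 < lam →
      volume {x : Plane | lam < ‖pvHilbert v a f x‖} ≤
        ENNReal.ofReal (C * lam⁻¹ ^ 2 * ∫ x, ‖f x‖ ^ 2)

lemma antilip (v : Plane → Plane) (hv : LipschitzWith 1 v) (t : ℝ) (ht : |t| < 1) :
    AntilipschitzWith (Real.toNNReal (1 - |t|)⁻¹) (fun x => x - t • v x) := by
  apply AntilipschitzWith.of_le_mul_dist
  intro x y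
  have h1 : dist (v x) (v y) ≤ dist x y := by simpa using hv.dist_le_mul x y
  have h2 : dist x y ≤ dist (x - t • v x) (y - t • v y) + |t| * dist (v x) (v y) := by
    rw [dist_eq_norm, dist_eq_norm, dist_eq_norm]
    have : x - y = (x - t • v x - (y - t • v y)) + t • (v x - v y) := by
      rw [smul_sub]; abel
    calc ‖x - y‖ = ‖(x - t • v x - (y - t • v y)) + t • (v x - v y)‖ := by rw [← this]
      _ ≤ _ := by
        refine (norm_add_le _ _).trans ?_
        rw [norm_smul, Real.norm_eq_abs]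
  have hpos : 0 < 1 - |t| := by linarith
  have h3 : (1 - |t|) * dist x y ≤ dist (x - t • v x) (y - t • v y) := by
    have := mul_le_mul_of_nonneg_left h1 (abs_nonneg t)
    nlinarith
  rw [Real.coe_toNNReal _ (inv_nonneg.mpr hpos.le)]
  rw [inv_mul_eq_div, le_div_iff₀ hpos]
  linarith

lemma vol_preimage_le {K : ℝ≥0} {Φ : Plane → Plane} (h : AntilipschitzWith K Φ) (s : Set Plane) :
    volume (Φ ⁻¹' s) ≤ (K : ℝ≥0∞) ^ 2 * volume s := by
  have key := h.hausdorffMeasure_preimage_le (d := ((2 : ℕ) : ℝ)) (by norm_num) s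
  rw [← EuclideanSpace.euclideanHausdorffMeasure_eq_volume 2,
    Measure.euclideanHausdorffMeasure_def, Measure.smul_apply, Measure.smul_apply]
  rw [ENNReal.rpow_natCast] at key
  calc _ ≤ Measure.addHaarScalarFactor (volume : Measure (EuclideanSpace ℝ (Fin 2))) μH[((2:ℕ):ℝ)] •
        ((K : ℝ≥0∞) ^ 2 * μH[((2:ℕ):ℝ)] s) := by
        gcongr
    _ = _ := by
        simp only [ENNReal.smul_def, smul_eq_mul]
        ring

lemma lintegral_comp_le {K : ℝ≥0} {Φ : Plane → Plane} (h : AntilipschitzWith K Φ)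
    (hΦ : Measurable Φ) {g : Plane → ℝ≥0∞} (hg : Measurable g) :
    ∫⁻ x, g (Φ x) ≤ (K : ℝ≥0∞) ^ 2 * ∫⁻ x, g x := by
  rw [← lintegral_map hg hΦ]
  have hle : Measure.map Φ volume ≤ ((K : ℝ≥0∞) ^ 2) • (volume : Measure Plane) := by
    rw [Measure.le_iff]
    intro s hs
    rw [Measure.map_apply hΦ hs]
    simpa using vol_preimage_le h s
  calc _ ≤ ∫⁻ x, g x ∂(((K : ℝ≥0∞) ^ 2) • (volume : Measure Plane)) := lintegral_mono' hle le_rfl
    _ = _ := by rw [lintegral_smul_measure]; rfl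

lemma sq_lintegral_le {α : Type*} [MeasurableSpace α] (μ : Measure α) {h : α → ℝ≥0∞}
    (hh : AEMeasurable h μ) :
    (∫⁻ x, h x ∂μ) ^ 2 ≤ μ univ * ∫⁻ x, h x ^ 2 ∂μ := by
  have key := ENNReal.lintegral_mul_le_Lp_mul_Lq μ Real.HolderConjugate.two_two
    (aemeasurable_const (b := (1 : ℝ≥0∞))) hh
  simp only [Pi.mul_apply, one_mul, ENNReal.one_rpow, lintegral_const] at key
  calc (∫⁻ x, h x ∂μ) ^ 2 ≤ ((μ univ) ^ (1 / (2:ℝ)) * (∫⁻ x, h x ^ (2:ℝ) ∂μ) ^ (1 / (2:ℝ))) ^ 2 := by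
        gcongr
    _ = _ := by
        rw [mul_pow, ← ENNReal.rpow_natCast, ← ENNReal.rpow_natCast, ← ENNReal.rpow_mul,
          ← ENNReal.rpow_mul]
        norm_num

/-- the annulus of parameters -/
def Ann (a b : ℝ) : Set ℝ := {t : ℝ | a ≤ |t| ∧ |t| < b}

lemma measurableSet_Ann (a b : ℝ) : MeasurableSet (Ann a b) := by
  unfold Ann
  exact (measurableSet_le measurable_const measurable_id.abs).inter
    (measurableSet_lt measurable_id.abs measurable_const)

lemma volume_Ann_le (a b : ℝ) (hb : b ≤ 1) : volume (Ann a b) ≤ 2 := by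
  have : Ann a b ⊆ Ioo (-1) 1 := by
    intro t ht
    have := ht.2
    rw [mem_Ioo, ← abs_lt]
    linarith
  calc volume (Ann a b) ≤ volume (Ioo (-1 : ℝ) 1) := measure_mono this
    _ = 2 := by rw [Real.volume_Ioo]; norm_num

/-- the square function controlling the annular part -/
noncomputable def Gfun (v : Plane → Plane) (a b : ℝ) (f : Plane → ℂ) (x : Plane) : ℝ≥0∞ :=
  ∫⁻ t in Ann a b, ‖f (x - t • v x)‖ₑ ^ 2

lemma cont_aux (v : Plane → Plane) (hv : Continuous v) (f : Plane → ℂ) (hf : Continuous f) :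
    Continuous (fun p : Plane × ℝ => f (p.1 - p.2 • v p.1)) := by
  fun_prop

lemma measurable_Gfun (v : Plane → Plane) (hv : Continuous v) (a b : ℝ) (f : Plane → ℂ)
    (hf : Continuous f) : Measurable (Gfun v a b f) := by
  unfold Gfun
  have h : Measurable (fun p : Plane × ℝ => ‖f (p.1 - p.2 • v p.1)‖ₑ ^ 2) :=
    ((cont_aux v hv f hf).measurable.enorm).pow_const 2
  exact h.lintegral_prod_right'

lemma lintegral_Gfun_le (v : Plane → Plane) (hv : LipschitzWith 1 v) (a b : ℝ) (hb : b < 1)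
    (f : Plane → ℂ) (hf : Continuous f) :
    ∫⁻ x, Gfun v a b f x ≤ 2 * ENNReal.ofReal ((1 - b)⁻¹) ^ 2 * ∫⁻ x, ‖f x‖ₑ ^ 2 := by
  unfold Gfun
  have h : Measurable (fun p : Plane × ℝ => ‖f (p.1 - p.2 • v p.1)‖ₑ ^ 2) :=
    ((cont_aux v hv.continuous f hf).measurable.enorm).pow_const 2
  rw [lintegral_lintegral_swap (f := fun x t => ‖f (x - t • v x)‖ₑ ^ 2) h.aemeasurable]
  have hpt : ∀ t ∈ Ann a b, ∫⁻ x, ‖f (x - t • v x)‖ₑ ^ 2 ≤
      ENNReal.ofReal ((1 - b)⁻¹) ^ 2 * ∫⁻ x, ‖f x‖ₑ ^ 2 := by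
    intro t ht
    have ht1 : |t| < 1 := lt_trans ht.2 hb
    have hΦ : Measurable (fun x : Plane => x - t • v x) := by
      have : Continuous (fun x : Plane => x - t • v x) := by
        have := hv.continuous
        fun_prop
      exact this.measurable
    have := lintegral_comp_le (antilip v hv t ht1) hΦ
      (g := fun y => ‖f y‖ₑ ^ 2) ((hf.measurable.enorm).pow_const 2)
    refine this.trans ?_
    gcongr
    rw [ENNReal.ofReal]
    gcongr
    exact ht.2.le
  calc ∫⁻ t in Ann a b, ∫⁻ x, ‖f (x - t • v x)‖ₑ ^ 2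
      ≤ ∫⁻ t in Ann a b, ENNReal.ofReal ((1 - b)⁻¹) ^ 2 * ∫⁻ x, ‖f x‖ₑ ^ 2 :=
        setLIntegral_mono' (measurableSet_Ann a b) hpt
    _ = ENNReal.ofReal ((1 - b)⁻¹) ^ 2 * (∫⁻ x, ‖f x‖ₑ ^ 2) * volume (Ann a b) := by
        rw [setLIntegral_const]
    _ ≤ ENNReal.ofReal ((1 - b)⁻¹) ^ 2 * (∫⁻ x, ‖f x‖ₑ ^ 2) * 2 := by
        gcongr
        exact volume_Ann_le a b hb.le
    _ = _ := by ring

/-- the annular part of the transform -/
noncomputable def annPart (v : Plane → Plane) (a b : ℝ) (f : Plane → ℂ) (x : Plane) : ℂ :=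
  ∫ t in Ann a b, f (x - t • v x) / (t : ℂ)

lemma enorm_annPart_sq_le (v : Plane → Plane) (a b : ℝ) (ha : 0 < a)
    (hb : b ≤ 1) (f : Plane → ℂ) (hf : Continuous f) (x : Plane) :
    ‖annPart v a b f x‖ₑ ^ 2 ≤ 2 * ENNReal.ofReal (a⁻¹) ^ 2 * Gfun v a b f x := by
  unfold annPart Gfun
  have h1 : ‖∫ t in Ann a b, f (x - t • v x) / (t : ℂ)‖ₑ ≤
      ∫⁻ t in Ann a b, ENNReal.ofReal (a⁻¹) * ‖f (x - t • v x)‖ₑ := by
    refine (enorm_integral_le_lintegral_enorm _).trans ?_
    refine setLIntegral_mono' (measurableSet_Ann a b) ?_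
    intro t ht
    have hta : a ≤ |t| := ht.1
    have htpos : 0 < |t| := lt_of_lt_of_le ha hta
    rw [div_eq_mul_inv, enorm_mul, mul_comm]
    gcongr
    rw [← ofReal_norm]
    apply ENNReal.ofReal_le_ofReal
    rw [norm_inv, Complex.norm_real, Real.norm_eq_abs]
    gcongr
  have hm : Measurable (fun t : ℝ => ‖f (x - t • v x)‖ₑ) := by
    have : Continuous (fun t : ℝ => f (x - t • v x)) := by fun_prop
    exact this.measurable.enorm
  rw [lintegral_const_mul _ hm] at h1
  calc ‖∫ t in Ann a b, f (x - t • v x) / (t : ℂ)‖ₑ ^ 2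
      ≤ (ENNReal.ofReal (a⁻¹) * ∫⁻ t in Ann a b, ‖f (x - t • v x)‖ₑ) ^ 2 := by gcongr
    _ = ENNReal.ofReal (a⁻¹) ^ 2 * (∫⁻ t in Ann a b, ‖f (x - t • v x)‖ₑ) ^ 2 := by rw [mul_pow]
    _ ≤ ENNReal.ofReal (a⁻¹) ^ 2 * ((volume.restrict (Ann a b)) univ *
          ∫⁻ t in Ann a b, ‖f (x - t • v x)‖ₑ ^ 2) := by
        gcongr
        exact sq_lintegral_le _ hm.aemeasurable
    _ ≤ ENNReal.ofReal (a⁻¹) ^ 2 * (2 * ∫⁻ t in Ann a b, ‖f (x - t • v x)‖ₑ ^ 2) := by
        gcongr
        rw [Measure.restrict_apply_univ]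
        exact volume_Ann_le a b hb
    _ = _ := by ring

/-- the truncation set -/
def Trunc (ε a : ℝ) : Set ℝ := {t : ℝ | ε < |t| ∧ |t| < a}

lemma measurableSet_Trunc (ε a : ℝ) : MeasurableSet (Trunc ε a) := by
  unfold Trunc
  exact (measurableSet_lt measurable_const measurable_id.abs).inter
    (measurableSet_lt measurable_id.abs measurable_const)

lemma volume_Trunc_lt_top (ε a : ℝ) : volume (Trunc ε a) < ⊤ := by
  have : Trunc ε a ⊆ Ioo (-a) a := by
    intro t ht
    rw [mem_Ioo, ← abs_lt]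
    exact ht.2
  exact lt_of_le_of_lt (measure_mono this) (by rw [Real.volume_Ioo]; exact ENNReal.ofReal_lt_top)

lemma odd_part_zero (c : ℂ) (ε a : ℝ) : ∫ t in Trunc ε a, c / (t : ℂ) = 0 := by
  rw [← integral_indicator (measurableSet_Trunc ε a)]
  set ψ : ℝ → ℂ := (Trunc ε a).indicator (fun t : ℝ => c / (t : ℂ)) with hψ
  have hodd : ∀ t, ψ (-t) = - ψ t := by
    intro t
    by_cases ht : t ∈ Trunc ε a
    · have ht' : -t ∈ Trunc ε a := by
        simpa [Trunc] using ht
      rw [hψ, indicator_of_mem ht, indicator_of_mem ht']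
      push_cast
      rw [div_neg]
    · have ht' : -t ∉ Trunc ε a := by
        simpa [Trunc] using ht
      rw [hψ, indicator_of_notMem ht, indicator_of_notMem ht']
      simp
  have h1 : ∫ t, ψ (-t) = ∫ t, ψ t := integral_neg_eq_self ψ volume
  have h2 : ∫ t, ψ (-t) = - ∫ t, ψ t := by
    rw [← integral_neg]
    exact integral_congr_ae (Eventually.of_forall hodd)
  have h3 : ∫ t, ψ t = - ∫ t, ψ t := h1.symm.trans h2
  exact self_eq_neg.mp h3

lemma integrableOn_div (g : ℝ → ℂ) (hg : Continuous g) (ε a : ℝ) (hε : 0 < ε) :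
    IntegrableOn (fun t : ℝ => g t / (t : ℂ)) (Trunc ε a) := by
  -- bounded on a bounded set
  have hsub : Trunc ε a ⊆ Icc (-a) a := by
    intro t ht
    rw [mem_Icc, ← abs_le]
    exact ht.2.le
  obtain ⟨B, hB⟩ := (isCompact_Icc (a := -a) (b := a)).exists_bound_of_continuousOn hg.continuousOn
  refine Measure.integrableOn_of_bounded (M := B * ε⁻¹) (volume_Trunc_lt_top ε a).ne ?_ ?_
  · have h1 : Measurable (fun t : ℝ => g t / (t : ℂ)) :=
      hg.measurable.div (Complex.measurable_ofReal)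
    exact h1.aestronglyMeasurable
  · rw [ae_restrict_iff' (measurableSet_Trunc ε a)]
    refine Eventually.of_forall ?_
    intro t ht
    have h1 := hB t (hsub ht)
    have h2 : ε < |t| := ht.1
    rw [norm_div, Complex.norm_real, Real.norm_eq_abs, div_eq_mul_inv]
    have hB0 : 0 ≤ B := (norm_nonneg _).trans h1
    gcongr

lemma pv_tendsto (g : ℝ → ℂ) (M : ℝ≥0) (hg : LipschitzWith M g) (a : ℝ) :
    Tendsto (fun ε => ∫ t in Trunc ε a, g t / (t : ℂ)) (𝓝[>] 0)
      (𝓝 (∫ t in Trunc 0 a, (g t - g 0) / (t : ℂ))) := by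
  set h : ℝ → ℂ := fun t => (g t - g 0) / (t : ℂ) with hh
  have hbound : ∀ t, ‖h t‖ ≤ M := by
    intro t
    rw [hh]
    simp only
    rw [norm_div, Complex.norm_real, Real.norm_eq_abs]
    by_cases ht : t = 0
    · simp [ht]
    · have htpos : 0 < |t| := abs_pos.mpr ht
      rw [div_le_iff₀ htpos]
      have := hg.dist_le_mul t 0
      rwa [dist_eq_norm, dist_eq_norm, sub_zero, Real.norm_eq_abs] at this
  have hmeas : Measurable h :=
    (hg.continuous.measurable.sub measurable_const).div Complex.measurable_ofReal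
  have hA : ∀ᶠ ε in 𝓝[>] (0 : ℝ), ∫ t in Trunc ε a, g t / (t : ℂ) =
      ∫ t, (Trunc ε a).indicator h t := by
    filter_upwards [self_mem_nhdsWithin] with ε hε
    have hε' : 0 < ε := hε
    rw [integral_indicator (measurableSet_Trunc ε a)]
    have h1 : ∀ t, g t / (t : ℂ) = h t + g 0 / (t : ℂ) := by
      intro t
      rw [hh]
      simp only
      ring
    have hi1 : IntegrableOn h (Trunc ε a) := by
      have := integrableOn_div (fun t => g t - g 0) (hg.continuous.sub continuous_const) ε a hε'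
      exact this
    have hi2 : IntegrableOn (fun t : ℝ => g 0 / (t : ℂ)) (Trunc ε a) :=
      integrableOn_div (fun _ => g 0) continuous_const ε a hε'
    calc ∫ t in Trunc ε a, g t / (t : ℂ) = ∫ t in Trunc ε a, (h t + g 0 / (t : ℂ)) := by
          simp_rw [h1]
      _ = (∫ t in Trunc ε a, h t) + ∫ t in Trunc ε a, g 0 / (t : ℂ) := integral_add hi1 hi2
      _ = _ := by rw [odd_part_zero, add_zero]
  rw [tendsto_congr' hA, ← integral_indicator (measurableSet_Trunc 0 a)]
  refine tendsto_integral_filter_of_dominated_convergence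
    ((Ioo (-a) a).indicator (fun _ => (M : ℝ))) ?_ ?_ ?_ ?_
  · refine Eventually.of_forall fun ε => ?_
    exact (hmeas.indicator (measurableSet_Trunc ε a)).aestronglyMeasurable
  · refine Eventually.of_forall fun ε => Eventually.of_forall fun t => ?_
    by_cases ht : t ∈ Trunc ε a
    · have ht2 : t ∈ Ioo (-a) a := by
        rw [mem_Ioo, ← abs_lt]; exact ht.2
      rw [indicator_of_mem ht, indicator_of_mem ht2]
      exact hbound t
    · rw [indicator_of_notMem ht, norm_zero]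
      exact indicator_nonneg (fun _ _ => M.coe_nonneg) t
  · rw [integrable_indicator_iff measurableSet_Ioo]
    exact integrableOn_const (by rw [Real.volume_Ioo]; exact ENNReal.ofReal_ne_top)
  · refine Eventually.of_forall fun t => ?_
    apply tendsto_const_nhds.congr'
    by_cases ht : t = 0
    · filter_upwards [self_mem_nhdsWithin] with ε hε
      have hε' : 0 < ε := hε
      have h1 : t ∉ Trunc 0 a := by simp [Trunc, ht]
      have h2 : t ∉ Trunc ε a := by
        intro h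
        have := h.1
        rw [ht, abs_zero] at this
        linarith
      rw [indicator_of_notMem h1, indicator_of_notMem h2]
    · have htpos : 0 < |t| := abs_pos.mpr ht
      have : Iio |t| ∈ 𝓝[>] (0 : ℝ) := mem_nhdsWithin_of_mem_nhds (Iio_mem_nhds htpos)
      filter_upwards [this] with ε hε
      have hε' : ε < |t| := hε
      by_cases hta : |t| < a
      · have h1 : t ∈ Trunc 0 a := ⟨htpos, hta⟩
        have h2 : t ∈ Trunc ε a := ⟨hε', hta⟩
        rw [indicator_of_mem h1, indicator_of_mem h2]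
      · have h1 : t ∉ Trunc 0 a := fun h => hta h.2
        have h2 : t ∉ Trunc ε a := fun h => hta h.2
        rw [indicator_of_notMem h1, indicator_of_notMem h2]

lemma schwartz_lipschitz (f : SchwartzMap Plane ℂ) : ∃ M : ℝ≥0, LipschitzWith M f := by
  obtain ⟨C, hC, h⟩ := f.decay 0 1
  refine ⟨C.toNNReal, lipschitzWith_of_nnnorm_fderiv_le (𝕜 := ℝ) f.differentiable ?_⟩
  intro x
  have := h x
  simp only [pow_zero, one_mul, norm_iteratedFDeriv_one] at this
  rw [← NNReal.coe_le_coe, Real.coe_toNNReal _ hC.le]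
  exact this

lemma line_lipschitz {f : Plane → ℂ} {M : ℝ≥0} (hf : LipschitzWith M f) (x u : Plane)
    (hu : ‖u‖ = 1) : LipschitzWith M (fun t : ℝ => f (x - t • u)) := by
  apply LipschitzWith.of_dist_le_mul
  intro t s
  refine (hf.dist_le_mul _ _).trans ?_
  gcongr
  rw [dist_eq_norm, dist_eq_norm]
  have : x - t • u - (x - s • u) = (s - t) • u := by
    rw [sub_smul]; abel
  rw [this, norm_smul, hu, mul_one, norm_sub_rev]

lemma pv_eq (v : Plane → Plane) (hv1 : ∀ x, ‖v x‖ = 1) (f : SchwartzMap Plane ℂ) (a : ℝ)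
    (x : Plane) :
    Tendsto (fun ε => truncHilbert v ε a f x) (𝓝[>] 0) (𝓝 (pvHilbert v a f x)) := by
  obtain ⟨M, hM⟩ := schwartz_lipschitz f
  have h := pv_tendsto (fun t : ℝ => f (x - t • v x)) M (line_lipschitz hM x (v x) (hv1 x)) a
  have h' : Tendsto (fun ε => truncHilbert v ε a f x) (𝓝[>] 0)
      (𝓝 (∫ t in Trunc 0 a, (f (x - t • v x) - f (x - (0:ℝ) • v x)) / (t : ℂ))) := h
  have : pvHilbert v a f x = _ := h'.limUnder_eq
  rw [this]
  exact h'

lemma trunc_split (v : Plane → Plane) (f : Plane → ℂ) (hf : Continuous f) (a b ε : ℝ)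
    (hε : 0 < ε) (hεa : ε < a) (hab : a ≤ b) (x : Plane) :
    truncHilbert v ε b f x = truncHilbert v ε a f x + annPart v a b f x := by
  have hset : Trunc ε b = Trunc ε a ∪ Ann a b := by
    ext t
    simp only [Trunc, Ann, mem_union]
    constructor
    · rintro ⟨h1, h2⟩
      by_cases h : |t| < a
      · exact Or.inl ⟨h1, h⟩
      · exact Or.inr ⟨not_lt.mp h, h2⟩
    · rintro (⟨h1, h2⟩ | ⟨h1, h2⟩)
      · exact ⟨h1, lt_of_lt_of_le h2 hab⟩
      · exact ⟨lt_of_lt_of_le hεa h1, h2⟩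
  have hdisj : Disjoint (Trunc ε a) (Ann a b) := by
    rw [Set.disjoint_left]
    rintro t ⟨_, h2⟩ ⟨h3, _⟩
    exact absurd h2 (not_lt.mpr h3)
  have hc : Continuous (fun t : ℝ => f (x - t • v x)) := by fun_prop
  have hi1 := integrableOn_div _ hc ε a hε
  have hi2 : IntegrableOn (fun t : ℝ => f (x - t • v x) / (t : ℂ)) (Ann a b) := by
    refine (integrableOn_div _ hc ε b hε).mono_set ?_
    rw [hset]
    exact subset_union_right
  have := setIntegral_union hdisj (measurableSet_Ann a b) hi1 hi2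
  rw [← hset] at this
  exact this

lemma pv_split (v : Plane → Plane) (hv1 : ∀ x, ‖v x‖ = 1) (f : SchwartzMap Plane ℂ) (a b : ℝ)
    (ha : 0 < a) (hab : a ≤ b) (x : Plane) :
    pvHilbert v b f x = pvHilbert v a f x + annPart v a b f x := by
  have h1 := pv_eq v hv1 f a x
  have h2 : Tendsto (fun ε => truncHilbert v ε b f x) (𝓝[>] 0)
      (𝓝 (pvHilbert v a f x + annPart v a b f x)) := by
    refine (h1.add_const (annPart v a b f x)).congr' ?_
    have : Ioo 0 a ∈ 𝓝[>] (0 : ℝ) := Ioo_mem_nhdsGT ha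
    filter_upwards [this] with ε hε
    exact (trunc_split v f f.continuous a b ε hε.1 hε.2 hab x).symm
  exact h2.limUnder_eq

lemma lintegral_sq_eq (f : SchwartzMap Plane ℂ) :
    ∫⁻ x, ‖f x‖ₑ ^ 2 = ENNReal.ofReal (∫ x, ‖f x‖ ^ 2) := by
  have hint : Integrable (fun x => ‖f x‖ ^ 2) := by
    have := (f.memLp 2 volume).integrable_norm_pow (p := 2) (by norm_num)
    simpa using this
  rw [ofReal_integral_eq_lintegral_ofReal hint (Eventually.of_forall fun x => by positivity)]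
  refine lintegral_congr fun x => ?_
  rw [ENNReal.ofReal_pow (norm_nonneg _), ofReal_norm]

lemma ennreal_calc (A B L N : ℝ) (hA : 0 ≤ A) (hB : 0 ≤ B) (hL : 0 < L) :
    2 * ENNReal.ofReal A ^ 2 * (2 * ENNReal.ofReal B ^ 2 * ENNReal.ofReal N) /
      ENNReal.ofReal L ^ 2 = ENNReal.ofReal (4 * A ^ 2 * B ^ 2 * L⁻¹ ^ 2 * N) := by
  have h2 : (2 : ℝ≥0∞) = ENNReal.ofReal 2 := by simp
  rw [← ENNReal.ofReal_pow hA, ← ENNReal.ofReal_pow hB, ← ENNReal.ofReal_pow hL.le]
  rw [h2, ← ENNReal.ofReal_mul (by positivity), ← ENNReal.ofReal_mul (by positivity),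
    ← ENNReal.ofReal_mul (by positivity), ← ENNReal.ofReal_mul (by positivity),
    ← ENNReal.ofReal_div_of_pos (by positivity)]
  congr 1
  field_simp
  ring

lemma meas_annPart_le (v : Plane → Plane) (hv : LipschitzWith 1 v) (f : SchwartzMap Plane ℂ)
    (a b : ℝ) (ha : 0 < a) (hb : b < 1) (lam : ℝ) (hlam : 0 < lam) :
    volume {x : Plane | lam < ‖annPart v a b f x‖} ≤
      ENNReal.ofReal (4 * a⁻¹ ^ 2 * (1 - b)⁻¹ ^ 2 * lam⁻¹ ^ 2 * ∫ x, ‖f x‖ ^ 2) := by
  set c1 : ℝ≥0∞ := 2 * ENNReal.ofReal (a⁻¹) ^ 2 with hc1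
  have hsub : {x : Plane | lam < ‖annPart v a b f x‖} ⊆
      {x : Plane | ENNReal.ofReal lam ^ 2 ≤ c1 * Gfun v a b f x} := by
    intro x hx
    have hx' : lam < ‖annPart v a b f x‖ := hx
    have h1 := enorm_annPart_sq_le v a b ha hb.le f f.continuous x
    refine le_trans ?_ h1
    gcongr
    rw [← ofReal_norm]
    exact ENNReal.ofReal_le_ofReal hx'.le
  have hmeas : Measurable (fun x => c1 * Gfun v a b f x) :=
    (measurable_Gfun v hv.continuous a b f f.continuous).const_mul c1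
  have hne0 : ENNReal.ofReal lam ^ 2 ≠ 0 := by
    simp [hlam]
  have hnetop : ENNReal.ofReal lam ^ 2 ≠ ⊤ := by
    simp
  have hN : 0 ≤ ∫ x, ‖f x‖ ^ 2 := integral_nonneg fun x => by positivity
  have h1b : 0 < 1 - b := by linarith
  calc volume {x : Plane | lam < ‖annPart v a b f x‖}
      ≤ volume {x : Plane | ENNReal.ofReal lam ^ 2 ≤ c1 * Gfun v a b f x} := measure_mono hsub
    _ ≤ (∫⁻ x, c1 * Gfun v a b f x) / ENNReal.ofReal lam ^ 2 :=
        meas_ge_le_lintegral_div hmeas.aemeasurable hne0 hnetop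
    _ = (c1 * ∫⁻ x, Gfun v a b f x) / ENNReal.ofReal lam ^ 2 := by
        rw [lintegral_const_mul _ (measurable_Gfun v hv.continuous a b f f.continuous)]
    _ ≤ (c1 * (2 * ENNReal.ofReal ((1 - b)⁻¹) ^ 2 * ∫⁻ x, ‖f x‖ₑ ^ 2)) / ENNReal.ofReal lam ^ 2 := by
        gcongr
        exact lintegral_Gfun_le v hv a b hb f f.continuous
    _ = _ := by
        rw [lintegral_sq_eq, hc1]
        exact ennreal_calc _ _ _ _ (by positivity) (by positivity) hlam

/-- dilation of a Schwartz function -/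
noncomputable def dil (s : ℝ) (hs : s ≠ 0) (f : SchwartzMap Plane ℂ) : SchwartzMap Plane ℂ :=
  SchwartzMap.compCLMOfContinuousLinearEquiv ℂ
    (ContinuousLinearEquiv.smulLeft (R₁ := ℝ) (M₁ := Plane) (Units.mk0 s hs)) f

lemma dil_apply (s : ℝ) (hs : s ≠ 0) (f : SchwartzMap Plane ℂ) (y : Plane) :
    dil s hs f y = f (s • y) := by
  simp [dil, Units.smul_def]

lemma trunc_scale (v : Plane → Plane) (f : Plane → ℂ) (s : ℝ) (hs : 0 < s) (ε a : ℝ) (y : Plane) :
    truncHilbert (fun y => v (s • y)) ε a (fun y => f (s • y)) y =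
      truncHilbert v (s * ε) (s * a) f (s • y) := by
  unfold truncHilbert
  change ∫ t in Trunc ε a, f (s • (y - t • v (s • y))) / (t : ℂ) =
    ∫ t in Trunc (s * ε) (s * a), f (s • y - t • v (s • y)) / (t : ℂ)
  set u := v (s • y) with hu
  set x := s • y with hx
  set φ : ℝ → ℂ := (Trunc (s * ε) (s * a)).indicator (fun t => f (x - t • u) / (t : ℂ)) with hφ
  have h1 : ∀ t : ℝ, φ (s * t) =
      (s : ℂ)⁻¹ * (Trunc ε a).indicator (fun t => f (s • (y - t • u)) / (t : ℂ)) t := by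
    intro t
    have hmem : s * t ∈ Trunc (s * ε) (s * a) ↔ t ∈ Trunc ε a := by
      simp only [Trunc, mem_ofPred_eq, abs_mul, abs_of_pos hs]
      constructor
      · rintro ⟨h1, h2⟩
        exact ⟨lt_of_mul_lt_mul_left h1 hs.le, lt_of_mul_lt_mul_left h2 hs.le⟩
      · rintro ⟨h1, h2⟩
        exact ⟨mul_lt_mul_of_pos_left h1 hs, mul_lt_mul_of_pos_left h2 hs⟩
    by_cases ht : t ∈ Trunc ε a
    · rw [hφ, indicator_of_mem (hmem.mpr ht), indicator_of_mem ht]
      have : s • (y - t • u) = x - (s * t) • u := by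
        rw [smul_sub, smul_smul]
      rw [this]
      push_cast
      rw [div_mul_eq_div_div_swap, div_eq_mul_inv, mul_comm]
    · rw [hφ, indicator_of_notMem (fun h => ht (hmem.mp h)), indicator_of_notMem ht, mul_zero]
  have h2 := Measure.integral_comp_mul_left φ s
  simp_rw [h1] at h2
  rw [integral_const_mul, integral_indicator (measurableSet_Trunc ε a), hφ,
    integral_indicator (measurableSet_Trunc _ _), abs_of_pos (inv_pos.mpr hs)] at h2
  have hs' : (s : ℂ)⁻¹ ≠ 0 := by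
    simp [hs.ne']
  rw [Complex.real_smul] at h2
  push_cast at h2
  exact mul_left_cancel₀ hs' h2

lemma pv_scale (v : Plane → Plane) (hv1 : ∀ x, ‖v x‖ = 1) (f : SchwartzMap Plane ℂ) (s : ℝ)
    (hs : 0 < s) (a : ℝ) (y : Plane) :
    pvHilbert (fun y => v (s • y)) a (dil s hs.ne' f) y = pvHilbert v (s * a) f (s • y) := by
  have h1 := pv_eq v hv1 f (s * a) (s • y)
  have hmul : Tendsto (fun ε : ℝ => s * ε) (𝓝[>] 0) (𝓝[>] 0) := by
    apply tendsto_nhdsWithin_of_tendsto_nhds_of_eventually_within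
    · have : Tendsto (fun ε : ℝ => s * ε) (𝓝 0) (𝓝 (s * 0)) :=
        (continuous_const.mul continuous_id).tendsto 0
      rw [mul_zero] at this
      exact this.mono_left nhdsWithin_le_nhds
    · filter_upwards [self_mem_nhdsWithin] with ε hε
      exact mul_pos hs hε
  have h2 := h1.comp hmul
  have h3 : Tendsto (fun ε => truncHilbert (fun y => v (s • y)) ε a (dil s hs.ne' f) y) (𝓝[>] 0)
      (𝓝 (pvHilbert v (s * a) f (s • y))) := by
    refine h2.congr ?_
    intro ε
    have hfun : (dil s hs.ne' f : Plane → ℂ) = fun y => f (s • y) := by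
      ext z; exact dil_apply s hs.ne' f z
    rw [hfun, trunc_scale v f s hs ε a y]
    rfl
  exact h3.limUnder_eq

lemma bound_scale (a C s : ℝ) (hs : 0 < s) (hs1 : s ≤ 1) (h : SteinWeakBound a C) :
    SteinWeakBound (s * a) C := by
  intro v hv1 hv f lam hlam
  have hv' : LipschitzWith 1 (fun y : Plane => v (s • y)) := by
    apply LipschitzWith.of_dist_le_mul
    intro x y
    refine (hv.dist_le_mul _ _).trans ?_
    simp only [NNReal.coe_one, one_mul]
    rw [dist_smul₀, Real.norm_eq_abs, abs_of_pos hs]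
    exact mul_le_of_le_one_left dist_nonneg hs1
  have key := h (fun y => v (s • y)) (fun y => hv1 _) hv' (dil s hs.ne' f) lam hlam
  simp_rw [pv_scale v hv1 f s hs a, dil_apply] at key
  have hpre : {x : Plane | lam < ‖pvHilbert v (s * a) f (s • x)‖} =
      (s • ·) ⁻¹' {x : Plane | lam < ‖pvHilbert v (s * a) f x‖} := rfl
  rw [hpre, Measure.addHaar_preimage_smul volume hs.ne',
    Measure.integral_comp_smul volume (fun x => ‖f x‖ ^ 2) s] at key
  have hfin : Module.finrank ℝ Plane = 2 := by simp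
  rw [hfin, abs_of_pos (by positivity), smul_eq_mul] at key
  have hpos : 0 < (s ^ 2)⁻¹ := by positivity
  have h4 : C * lam⁻¹ ^ 2 * ((s ^ 2)⁻¹ * ∫ x, ‖f x‖ ^ 2) =
      (s ^ 2)⁻¹ * (C * lam⁻¹ ^ 2 * ∫ x, ‖f x‖ ^ 2) := by ring
  rw [h4, ENNReal.ofReal_mul hpos.le] at key
  exact (ENNReal.mul_le_mul_iff_right (by simp [hs.ne']) (by simp)).mp key

lemma bound_mono {a C C' : ℝ} (h : SteinWeakBound a C) (hC : C ≤ C') : SteinWeakBound a C' := by
  intro v hv1 hv f lam hlam
  refine (h v hv1 hv f lam hlam).trans ?_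
  apply ENNReal.ofReal_le_ofReal
  have hN : 0 ≤ ∫ x, ‖f x‖ ^ 2 := integral_nonneg fun x => by positivity
  gcongr

lemma superlevel_subset (F1 F2 D : Plane → ℂ) (h : ∀ x, ‖F2 x‖ ≤ ‖F1 x‖ + ‖D x‖) (lam : ℝ) :
    {x | lam < ‖F2 x‖} ⊆ {x | lam / 2 < ‖F1 x‖} ∪ {x | lam / 2 < ‖D x‖} := by
  intro x hx
  have hx' : lam < ‖F2 x‖ := hx
  by_contra hcon
  rw [mem_union, not_or] at hcon
  have h1 : ¬ (lam / 2 < ‖F1 x‖) := hcon.1
  have h2 : ¬ (lam / 2 < ‖D x‖) := hcon.2
  have := h x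
  linarith [not_lt.mp h1, not_lt.mp h2]

/-- Passing between two truncations `a ≤ b < 1`, in either direction. -/
lemma bound_transfer (a b c c' C : ℝ) (ha : 0 < a) (hab : a ≤ b) (hb : b < 1) (hC : 0 ≤ C)
    (hcc : (c = a ∧ c' = b) ∨ (c = b ∧ c' = a)) (h : SteinWeakBound c C) :
    SteinWeakBound c' (4 * C + 16 * a⁻¹ ^ 2 * (1 - b)⁻¹ ^ 2) := by
  intro v hv1 hv f lam hlam
  have hsplit := pv_split v hv1 f a b ha hab
  have hnorm : ∀ x, ‖pvHilbert v c' f x‖ ≤ ‖pvHilbert v c f x‖ + ‖annPart v a b f x‖ := by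
    intro x
    rcases hcc with ⟨rfl, rfl⟩ | ⟨rfl, rfl⟩
    · rw [hsplit x]; exact norm_add_le _ _
    · have : pvHilbert v c' f x = pvHilbert v c f x - annPart v c' c f x := by
        rw [hsplit x]; ring
      rw [this]; exact norm_sub_le _ _
  have hlam2 : 0 < lam / 2 := by positivity
  have hN : 0 ≤ ∫ x, ‖f x‖ ^ 2 := integral_nonneg fun x => by positivity
  have h1b : 0 < 1 - b := by linarith
  calc volume {x : Plane | lam < ‖pvHilbert v c' f x‖}
      ≤ volume ({x : Plane | lam / 2 < ‖pvHilbert v c f x‖} ∪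
          {x : Plane | lam / 2 < ‖annPart v a b f x‖}) :=
        measure_mono (superlevel_subset _ _ _ hnorm lam)
    _ ≤ volume {x : Plane | lam / 2 < ‖pvHilbert v c f x‖} +
          volume {x : Plane | lam / 2 < ‖annPart v a b f x‖} := measure_union_le _ _
    _ ≤ ENNReal.ofReal (C * (lam / 2)⁻¹ ^ 2 * ∫ x, ‖f x‖ ^ 2) +
          ENNReal.ofReal (4 * a⁻¹ ^ 2 * (1 - b)⁻¹ ^ 2 * (lam / 2)⁻¹ ^ 2 * ∫ x, ‖f x‖ ^ 2) :=
        add_le_add (h v hv1 hv f (lam / 2) hlam2) (meas_annPart_le v hv f a b ha hb (lam / 2) hlam2)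
    _ = _ := by
        rw [← ENNReal.ofReal_add (by positivity) (by positivity)]
        congr 1
        field_simp
        ring

/-- **Truncation range theorem.**  Stein's conjecture in the Lacey-Li form (a uniform weak-type
(2,2) bound for `H_{v,a₀}` for *some* `a₀ > 0`) is equivalent to the same bound for *every*
truncation `a₀ ∈ (0,1)`, i.e. on the whole range in which `x ↦ x - t v(x)` is bi-Lipschitz. -/
theorem result :
    (∃ a₀ : ℝ, 0 < a₀ ∧ ∃ C : ℝ, SteinWeakBound a₀ C) ↔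
      (∀ a₀ : ℝ, 0 < a₀ → a₀ < 1 → ∃ C : ℝ, SteinWeakBound a₀ C) := by
  constructor
  · rintro ⟨a₀, ha₀, C, hC⟩ b hb0 hb1
    -- first shrink the truncation by scaling, then enlarge it
    set a := min a₀ b with ha
    have ha0 : 0 < a := lt_min ha₀ hb0
    have hab : a ≤ b := min_le_right _ _
    have hs : SteinWeakBound a C := by
      have h1 : 0 < a / a₀ := by positivity
      have h2 : a / a₀ ≤ 1 := (div_le_one ha₀).mpr (min_le_left _ _)
      have := bound_scale a₀ C (a / a₀) h1 h2 hC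
      rwa [div_mul_cancel₀ _ ha₀.ne'] at this
    have hs' : SteinWeakBound a |C| := bound_mono hs (le_abs_self C)
    exact ⟨_, bound_transfer a b a b |C| ha0 hab hb1 (abs_nonneg C) (Or.inl ⟨rfl, rfl⟩) hs'⟩
  · intro h
    exact ⟨1 / 2, by norm_num, h (1 / 2) (by norm_num) (by norm_num)⟩

end Vale.Agent.Results.P112.TruncationRange
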